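import Vale.Agent.P217.H260.Main

/-!
# P261: the extended Morava stabilizer group (helper620)

`Gn p n F` is the group of all pairs `(φ, g)`: `φ` an automorphism of the Lubin-Tate ring `E₀` and
`g : F → φ_* F` an isomorphism of formal group laws.  By universality of `F` it is
`Aut(Γ) ⋊ Gal` (`Gn.reduces_bijective`, `Gn.Reduces.mul`).
-/

namespace Vale.Agent.P261

open MvPowerSeries Vale.Agent.P217.LT

variable (p n : ℕ) [Fact p.Prime] (F : FormalGroup (E0 p n))

/-- The extended Morava stabilizer group, acting on `(E₀, F)`: pairs `(φ, g)` of a ring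
automorphism `φ` of `E₀` and an isomorphism `g : F → φ_* F` of formal group laws. -/
def Gn : Type :=
  {x : RingAut (E0 p n) × PowerSeries (E0 p n) //
    IsIso F (F.map (x.1 : E0 p n →+* E0 p n)) x.2}

variable {p n F}

namespace Gn

theorem ext {x y : Gn p n F} (h1 : x.1.1 = y.1.1) (h2 : x.1.2 = y.1.2) : x = y :=
  Subtype.ext (Prod.ext h1 h2)

theorem iso (x : Gn p n F) :
    Vale.Agent.P217.IsIso F (F.map (x.1.1 : E0 p n →+* E0 p n)) x.1.2 :=
  Vale.Agent.P217.LTC.isIso_iff.1 x.2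

theorem coe_one : ((1 : RingAut (E0 p n)) : E0 p n →+* E0 p n) = RingHom.id _ := rfl

theorem coe_mul (φ ψ : RingAut (E0 p n)) : ((φ * ψ : RingAut (E0 p n)) : E0 p n →+* E0 p n) =
    (φ : E0 p n →+* E0 p n).comp (ψ : E0 p n →+* E0 p n) := rfl

theorem coe_inv_comp (φ : RingAut (E0 p n)) :
    ((φ⁻¹ : RingAut (E0 p n)) : E0 p n →+* E0 p n).comp (φ : E0 p n →+* E0 p n) =
      RingHom.id _ := by
  ext x : 1
  exact φ.symm_apply_apply x

/-- constructor from the other form of the definition. -/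
def mk' (φ : RingAut (E0 p n)) (g : PowerSeries (E0 p n))
    (h : Vale.Agent.P217.IsIso F (F.map (φ : E0 p n →+* E0 p n)) g) : Gn p n F :=
  ⟨(φ, g), Vale.Agent.P217.LTC.isIso_iff.2 h⟩

noncomputable instance : Mul (Gn p n F) :=
  ⟨fun x y => mk' (x.1.1 * y.1.1)
    (PowerSeries.subst x.1.2 (PowerSeries.map (x.1.1 : E0 p n →+* E0 p n) y.1.2)) (by
      have h := y.iso.mapC (x.1.1 : E0 p n →+* E0 p n)
      rw [Vale.Agent.P217.C0.FG_map_map, ← coe_mul] at h
      exact x.iso.compC h)⟩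

noncomputable instance : One (Gn p n F) :=
  ⟨mk' 1 PowerSeries.X (by
    rw [coe_one, Vale.Agent.P217.C0.FG_map_id]
    exact Vale.Agent.P217.C0.isIso_X)⟩

theorem mul_fst (x y : Gn p n F) : (x * y).1.1 = x.1.1 * y.1.1 := rfl

theorem mul_snd (x y : Gn p n F) : (x * y).1.2 =
    PowerSeries.subst x.1.2 (PowerSeries.map (x.1.1 : E0 p n →+* E0 p n) y.1.2) := rfl

theorem one_fst : (1 : Gn p n F).1.1 = 1 := rfl

theorem one_snd : (1 : Gn p n F).1.2 = PowerSeries.X := rfl

theorem map_coe_mul (φ ψ : RingAut (E0 p n)) (g : PowerSeries (E0 p n)) :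
    PowerSeries.map ((φ * ψ : RingAut (E0 p n)) : E0 p n →+* E0 p n) g =
      PowerSeries.map (φ : E0 p n →+* E0 p n) (PowerSeries.map (ψ : E0 p n →+* E0 p n) g) := by
  rw [Vale.Agent.P217.C0.ps_map_comp, coe_mul]

theorem map_coe_one (g : PowerSeries (E0 p n)) :
    PowerSeries.map ((1 : RingAut (E0 p n)) : E0 p n →+* E0 p n) g = g := by
  ext i
  rw [PowerSeries.coeff_map]
  rfl

/-- existence of the inverse. -/
theorem exists_inv (x : Gn p n F) : ∃ y : Gn p n F, y * x = 1 := by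
  obtain ⟨h, hh, k1, k2⟩ := x.iso.symmC
  have h1 := hh.mapC ((x.1.1⁻¹ : RingAut (E0 p n)) : E0 p n →+* E0 p n)
  rw [Vale.Agent.P217.C0.FG_map_map, coe_inv_comp, Vale.Agent.P217.C0.FG_map_id] at h1
  refine ⟨mk' x.1.1⁻¹ (PowerSeries.map
    ((x.1.1⁻¹ : RingAut (E0 p n)) : E0 p n →+* E0 p n) h) h1, ?_⟩
  refine ext (inv_mul_cancel x.1.1) ?_
  show PowerSeries.subst (PowerSeries.map
    ((x.1.1⁻¹ : RingAut (E0 p n)) : E0 p n →+* E0 p n) h)
    (PowerSeries.map ((x.1.1⁻¹ : RingAut (E0 p n)) : E0 p n →+* E0 p n) x.1.2) = PowerSeries.X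
  rw [← Vale.Agent.P217.C0.ps_map_subst _ hh.1.1, k2, PowerSeries.map_X]

noncomputable instance : Inv (Gn p n F) := ⟨fun x => (exists_inv x).choose⟩

theorem inv_mul_cancel' (x : Gn p n F) : x⁻¹ * x = 1 := (exists_inv x).choose_spec

noncomputable instance : Group (Gn p n F) :=
  Group.ofLeftAxioms
    (by
      intro x y z
      refine ext (mul_assoc _ _ _) ?_
      rw [mul_snd, mul_snd, mul_snd, mul_snd, mul_fst, map_coe_mul,
        Vale.Agent.P217.C0.ps_map_subst _ y.iso.1.1]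
      exact (PowerSeries.subst_comp_subst_apply
        (Vale.Agent.P217.C0.hasSubst_of_cc (Vale.Agent.P217.C0.cc_map _ y.iso.1.1))
        (Vale.Agent.P217.C0.hasSubst_of_cc x.iso.1.1) _).symm)
    (by
      intro x
      refine ext (one_mul _) ?_
      rw [mul_snd, one_snd, one_fst, map_coe_one]
      exact PowerSeries.X_subst _)
    inv_mul_cancel'

/-- the action on `E₀`. -/
def pi : Gn p n F →* RingAut (E0 p n) where
  toFun x := x.1.1
  map_one' := rfl
  map_mul' _ _ := rfl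

/-- the leading coefficient of `g` (a crossed homomorphism to the units of `E₀`). -/
noncomputable def t (x : Gn p n F) : E0 p n := PowerSeries.coeff 1 x.1.2

theorem pi_apply (x : Gn p n F) : pi x = x.1.1 := rfl

theorem t_one : t (1 : Gn p n F) = 1 := by
  show PowerSeries.coeff 1 (PowerSeries.X : PowerSeries (E0 p n)) = 1
  exact PowerSeries.coeff_one_X

theorem t_mul (x y : Gn p n F) : t (x * y) = t x * pi x (t y) := by
  show PowerSeries.coeff 1 (PowerSeries.subst x.1.2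
    (PowerSeries.map (x.1.1 : E0 p n →+* E0 p n) y.1.2) : PowerSeries (E0 p n)) = _
  rw [Vale.Agent.P217.C0.coeff_one_subst x.iso.1.1, PowerSeries.coeff_map]
  rfl

theorem isUnit_t (x : Gn p n F) : IsUnit (t x) := x.iso.2

theorem t_ne_zero (x : Gn p n F) : t x ≠ 0 := (isUnit_t x).ne_zero

/-- `m` is a unit of `E₀` if `p ∤ m`. -/
theorem isUnit_natCast (m : ℕ) (hm : ¬ p ∣ m) : IsUnit (m : E0 p n) := by
  have h : (m : GaloisField p n) ≠ 0 := fun h =>
    hm ((CharP.cast_eq_zero_iff (GaloisField p n) p m).1 h)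
  rw [Vale.Agent.P217.CA.isUnit_iff_rd, map_natCast]
  exact h

/-- multiplication by a natural number prime to `p` is a central element. -/
theorem central (hc : F.IsComm) (m : ℕ) (hm : ¬ p ∣ m) :
    ∃ z : Gn p n F, pi z = 1 ∧ t z = (m : E0 p n) ∧ z.1.2 = multSeries F m ∧
      ∀ x, z * x = x * z := by
  have h1 : PowerSeries.coeff 1 (Vale.Agent.P217.multSeries F m) = (m : E0 p n) :=
    Vale.Agent.P217.C0.coeff_one_multSeries m
  have hz : Vale.Agent.P217.IsIso F (F.map ((1 : RingAut (E0 p n)) : E0 p n →+* E0 p n))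
      (Vale.Agent.P217.multSeries F m) := by
    rw [coe_one, Vale.Agent.P217.C0.FG_map_id]
    exact ⟨Vale.Agent.P217.C0.isHom_multSeries m, by rw [h1]; exact isUnit_natCast m hm⟩
  refine ⟨mk' 1 (Vale.Agent.P217.multSeries F m) hz, rfl, h1, rfl, fun x => ?_⟩
  refine ext ((one_mul _).trans (mul_one _).symm) ?_
  rw [mul_snd, mul_snd]
  show PowerSeries.subst (Vale.Agent.P217.multSeries F m)
    (PowerSeries.map ((1 : RingAut (E0 p n)) : E0 p n →+* E0 p n) x.1.2) =
    PowerSeries.subst x.1.2 (PowerSeries.map (x.1.1 : E0 p n →+* E0 p n)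
      (Vale.Agent.P217.multSeries F m))
  rw [map_coe_one, Vale.Agent.P217.C0.map_multSeries]
  exact x.iso.1.subst_multSeries m

variable {Γ : FormalGroup (ZMod p)}

/-- the image of `Gn` in the automorphism group of `E₀` is the group through which the extended
Morava stabilizer group acts. -/
theorem range_pi (hF : IsUniversal p n Γ F) :
    (pi : Gn p n F →* RingAut (E0 p n)).range = actionGroup p n Γ F := by
  have hF' := Vale.Agent.P217.LTC.isUniversal_iff.1 hF
  ext φ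
  rw [Vale.Agent.P217.H260.mem_actionGroup hF', Vale.Agent.P217.H260.acts_iff_actIso hF']
  constructor
  · rintro ⟨x, rfl⟩
    exact ⟨_, x.iso⟩
  · rintro ⟨g, hg⟩
    exact ⟨mk' φ g hg, rfl⟩

/-- `x` reduces to the automorphism `σ` of `𝔽_{p^n}` and the power series `γ` over `𝔽_{p^n}`. -/
def Reduces (x : Gn p n F) (σ : GaloisField p n ≃+* GaloisField p n)
    (γ : PowerSeries (GaloisField p n)) : Prop :=
  (red p n).comp (x.1.1 : E0 p n →+* E0 p n) =
    (σ : GaloisField p n →+* GaloisField p n).comp (red p n) ∧ x.1.2.map (red p n) = γ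

/-- `Gn` consists of the pairs `(σ, γ)`: `σ` an automorphism of `𝔽_{p^n}`, `γ` an automorphism of
`Γ` over `𝔽_{p^n}`. -/
theorem reduces_bijective (hF : IsUniversal p n Γ F) :
    (∀ x : Gn p n F, ∃! s : (GaloisField p n ≃+* GaloisField p n) × PowerSeries (GaloisField p n),
      Reduces x s.1 s.2) ∧
    (∀ (x : Gn p n F) σ γ, Reduces x σ γ → IsIso (base p n Γ) (base p n Γ) γ) ∧
    ∀ σ γ, IsIso (base p n Γ) (base p n Γ) γ → ∃! x : Gn p n F, Reduces x σ γ := by
  have hF' := Vale.Agent.P217.LTC.isUniversal_iff.1 hF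
  refine ⟨fun x => ?_, fun x σ γ h => ?_, fun σ γ h => ?_⟩
  · obtain ⟨σ, ⟨h1, -⟩, h2⟩ := Vale.Agent.P217.AC.exists_unique_reduction hF' x.1.1 x.1.2 x.iso
    refine ⟨(σ, x.1.2.map (red p n)), ⟨h1, rfl⟩, ?_⟩
    rintro ⟨σ', γ'⟩ ⟨k1, k2⟩
    obtain ⟨τ, hτ, huniq⟩ := Vale.Agent.P217.AC.exists_unique_residue x.1.1
    exact Prod.ext ((huniq σ' k1).trans (huniq σ h1).symm) k2.symm
  · obtain ⟨σ', ⟨-, h2⟩, -⟩ := Vale.Agent.P217.AC.exists_unique_reduction hF' x.1.1 x.1.2 x.iso
    rw [← h.2]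
    exact Vale.Agent.P217.LTC.isIso_iff.2 h2
  · obtain ⟨⟨φ, g⟩, ⟨h1, h2, h3⟩, h4⟩ := Vale.Agent.P217.AC.exists_unique_pair hF' σ γ
      (Vale.Agent.P217.LTC.isIso_iff.1 h)
    refine ⟨mk' φ g h2, ⟨h1, h3⟩, ?_⟩
    rintro y ⟨k1, k2⟩
    have h5 := h4 (y.1.1, y.1.2) ⟨k1, y.iso, k2⟩
    exact ext (congrArg Prod.fst h5) (congrArg Prod.snd h5)

/-- the product in terms of the pairs `(σ, γ)`. -/
theorem Reduces.mul {x y : Gn p n F} {σ τ : GaloisField p n ≃+* GaloisField p n}
    {γ δ : PowerSeries (GaloisField p n)} (hx : Reduces x σ γ) (hy : Reduces y τ δ) :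
    Reduces (x * y) (σ * τ : RingAut (GaloisField p n)) (PowerSeries.subst γ
      (PowerSeries.map (σ : GaloisField p n →+* GaloisField p n) δ)) := by
  refine ⟨?_, ?_⟩
  · rw [mul_fst, coe_mul, ← RingHom.comp_assoc, hx.1, RingHom.comp_assoc, hy.1,
      ← RingHom.comp_assoc]
    rfl
  · rw [mul_snd, Vale.Agent.P217.C0.ps_map_subst _ x.iso.1.1, hx.2,
      Vale.Agent.P217.C0.ps_map_comp, hx.1, ← Vale.Agent.P217.C0.ps_map_comp, hy.2]

end Gn

end Vale.Agent.P261
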